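import Crest.Agent.R192.Iface
import Crest.Agent.R192.Lab

/-! Row 192, block K (owner helper72): a random layer is good with overwhelming probability. -/

set_option autoImplicit false
set_option linter.unusedSectionVars false

open MeasureTheory ProbabilityTheory Finset

noncomputable section

namespace Crest.Agent.R192
namespace K

section Gen
variable {ι S : Type} [Fintype S] [Nonempty S] [MeasurableSpace S] [MeasurableSingletonClass S]

abbrev MU (ι S : Type) [MeasurableSpace S] : Measure (ι → S) :=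
  Measure.infinitePi fun _ : ι => (uniformOn Set.univ : Measure S)

theorem markov (U : Finset ι) (f : ι → S → ℝ) (hf : ∀ i s, 0 ≤ f i s) (c : ℝ) :
    c * (MU ι S).real {η | c ≤ ∏ i ∈ U, f i (η i)} ≤ ∏ i ∈ U, (∑ s, f i s) / Fintype.card S := by
  have e : ∀ η : ι → S, ∏ i ∈ U, f i (η i) = ∏ i : U, f i (U.restrict η i) := fun η =>
    (Finset.prod_coe_sort U fun i => f i (η i)).symm
  have hm : MeasurePreserving U.restrict (MU ι S) (Measure.pi fun _ : U => uniformOn Set.univ) :=
    ⟨Finset.measurable_restrict U, Measure.infinitePi_map_restrict _⟩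
  refine (mul_meas_ge_le_integral_of_nonneg (f := fun η : ι → S => ∏ i ∈ U, f i (η i))
    (ae_of_all _ fun η => Finset.prod_nonneg fun i _ => hf _ _) ?_ c).trans_eq ?_
  · simp only [e]
    exact hm.integrable_comp_of_integrable (g := fun y : U → S => ∏ i : U, f i (y i)) .of_finite
  · simp only [e]
    rw [integral_restrict_infinitePi (X := fun _ => S) (s := U) (f := fun y : U → S => ∏ i : U, f i (y i)) _
        .of_discrete,
      integral_fintype_prod_eq_prod fun (i : U) s => f i s,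
      Finset.prod_coe_sort U fun i => ∫ s, f i s ∂uniformOn Set.univ]
    refine Finset.prod_congr rfl fun i _ => ?_
    rw [integral_fintype .of_finite, Finset.sum_div]
    refine Finset.sum_congr rfl fun s _ => ?_
    simp [measureReal_def, uniformOn_univ, div_eq_inv_mul]

theorem chern (U : Finset ι) (X : ι → S → ℝ) (m : ι → ℝ) (a : ℝ)
    (h : ∀ i, ∑ s, Real.exp (X i s) ≤ Fintype.card S * Real.exp (m i)) :
    (MU ι S).real {η | a ≤ ∑ i ∈ U, X i (η i)} ≤ Real.exp (∑ i ∈ U, m i - a) := by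
  have h1 := markov U (fun i s => Real.exp (X i s)) (fun _ _ => (Real.exp_pos _).le) (Real.exp a)
  simp only [← Real.exp_sum, Real.exp_le_exp] at h1
  rw [Real.exp_sub, le_div_iff₀' (Real.exp_pos _), Real.exp_sum]
  refine h1.trans (Finset.prod_le_prod (fun i _ => by positivity) fun i _ => ?_)
  rw [div_le_iff₀' (by exact_mod_cast Fintype.card_pos)]
  exact h i

theorem ub {κ : Type} (T : Finset κ) (A : κ → Set (ι → S)) {r : ℝ} (h : ∀ k ∈ T, (MU ι S).real (A k) ≤ r) :
    (MU ι S).real {η | ∃ k ∈ T, η ∈ A k} ≤ T.card * r := by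
  have e : {η | ∃ k ∈ T, η ∈ A k} = ⋃ k ∈ T, A k := by ext; simp
  rw [e, ← nsmul_eq_mul]
  exact (measureReal_biUnion_finset_le _ _).trans (Finset.sum_le_card_nsmul _ _ _ h)

end Gen

theorem sum_sq {a : ℝ} (ha : 0 < a) (n : ℕ) :
    ∑ k ∈ range n, min 1 ((a / (k + 1)) ^ 2) ≤ 4 * a * n / (a + n) := by
  induction n with
  | zero => simp
  | succ n ih =>
    have hn : (0 : ℝ) ≤ n := n.cast_nonneg
    have e : 4 * a * (n + 1 : ℕ) / (a + (n + 1 : ℕ)) =
        4 * a * n / (a + n) + 4 * a ^ 2 / ((a + n) * (a + n + 1)) := by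
      push_cast
      field_simp
      ring
    rw [Finset.sum_range_succ, e]
    gcongr
    rcases le_total a (n + 1) with h | h
    · refine (min_le_right _ _).trans ?_
      rw [div_pow, div_le_div_iff₀ (by positivity) (by positivity)]
      have : (a + n) * (a + n + 1) ≤ 4 * (n + 1) ^ 2 := by nlinarith
      nlinarith [mul_le_mul_of_nonneg_left this (sq_nonneg a)]
    · refine (min_le_left _ _).trans ?_
      rw [le_div_iff₀ (by positivity)]
      nlinarith

theorem sum_four {a : ℝ} (n : ℕ) : min (a - 1) n ≤ ∑ k ∈ range n, min 1 ((a / (k + 1)) ^ 4) := by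
  induction n with
  | zero => simp
  | succ n ih =>
    rw [Finset.sum_range_succ]
    push_cast
    rcases le_total a (n + 1) with h | h
    · rw [min_eq_left (by linarith)] at ih ⊢
      exact le_add_of_le_of_nonneg ih (le_min zero_le_one (by positivity))
    · rw [min_eq_left (one_le_pow₀ ((one_le_div (by positivity)).2 h))]
      refine le_trans ?_ (add_le_add_left ih 1)
      rw [← min_add_add_right]
      exact min_le_min (by linarith) le_rfl

variable (P : Par)

theorem card_Sg : (Fintype.card (Sg P) : ℝ) = P.GG * P.kc := by simp [Par.GG, Par.kc]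

theorem sum_lev (φ : ℝ → ℝ) (x : ℝ) :
    ∑ s : Sg P, φ (lev P s * x) = P.kc * ∑ k ∈ range P.GG, φ (P.GG * x / (k + 1)) := by
  rw [Fintype.sum_prod_type, Finset.mul_sum, Par.GG,
    ← Fin.sum_univ_eq_sum_range fun k => (P.kc : ℝ) * φ ((P.G0 + 1 : ℕ) * x / (k + 1))]
  refine Finset.sum_congr rfl fun k _ => ?_
  simp [lev, Par.GG, Par.kc, div_mul_eq_mul_div]

theorem mgf_up {x : ℝ} (hx : 0 < x) : ∑ s : Sg P, Real.exp (min 1 ((lev P s * x) ^ 2)) ≤
    Fintype.card (Sg P) * Real.exp (8 * min 1 x) := by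
  have hG : (0 : ℝ) < P.GG := by simp [Par.GG]; positivity
  have h1 := sum_sq (mul_pos hG hx) P.GG
  have h2 : 4 * (P.GG * x) * P.GG / (P.GG * x + P.GG) ≤ P.GG * (4 * min 1 x) := by
    rw [div_le_iff₀ (by positivity)]
    have : x ≤ min 1 x * (x + 1) := by rcases le_total 1 x with h | h <;> simp [h] <;> nlinarith
    nlinarith [mul_le_mul_of_nonneg_left this (mul_pos hG hG).le]
  rw [sum_lev P (fun t => Real.exp (min 1 (t ^ 2))), card_Sg, mul_comm (P.GG : ℝ) P.kc, mul_assoc]
  refine mul_le_mul_of_nonneg_left ?_ (Nat.cast_nonneg (α := ℝ) _)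
  calc _ ≤ ∑ k ∈ range P.GG, (1 + 2 * min 1 ((P.GG * x / ((k : ℕ) + 1)) ^ 2) : ℝ) :=
        Finset.sum_le_sum fun k _ => by
          have h0 : (0 : ℝ) ≤ min 1 ((P.GG * x / (k + 1)) ^ 2) := le_min zero_le_one (sq_nonneg _)
          have := Real.abs_exp_sub_one_le (x := min 1 ((P.GG * x / (k + 1)) ^ 2))
            (by rw [abs_of_nonneg h0]; exact min_le_left _ _)
          rw [abs_of_nonneg h0] at this
          linarith [le_abs_self (Real.exp (min 1 ((P.GG * x / (k + 1)) ^ 2)) - 1)]
    _ ≤ P.GG * (8 * min 1 x + 1) := by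
        rw [Finset.sum_add_distrib, ← Finset.mul_sum]
        simp only [Finset.sum_const, Finset.card_range, nsmul_eq_mul]
        linarith
    _ ≤ _ := mul_le_mul_of_nonneg_left (Real.add_one_le_exp _) hG.le

theorem mgf_lo (x : ℝ) : ∑ s : Sg P, Real.exp (-min 1 ((lev P s * x) ^ 4)) ≤
    Fintype.card (Sg P) * Real.exp (-((min 1 x - 1 / P.GG) / 2)) := by
  have hG : (0 : ℝ) < P.GG := by simp [Par.GG]; positivity
  have h1 := sum_four (a := P.GG * x) P.GG
  have h2 : P.GG * (min 1 x - 1 / P.GG) ≤ min (P.GG * x - 1) P.GG := by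
    rw [mul_sub, mul_one_div_cancel hG.ne']
    exact le_min (by gcongr; exact min_le_right _ _)
      (by nlinarith [mul_le_mul_of_nonneg_left (min_le_left 1 x) hG.le])
  rw [sum_lev P (fun t => Real.exp (-min 1 (t ^ 4))), card_Sg, mul_comm (P.GG : ℝ) P.kc, mul_assoc]
  refine mul_le_mul_of_nonneg_left ?_ (Nat.cast_nonneg (α := ℝ) _)
  calc _ ≤ ∑ k ∈ range P.GG, (1 - min 1 ((P.GG * x / ((k : ℕ) + 1)) ^ 4) / 2 : ℝ) :=
        Finset.sum_le_sum fun k _ => by
          have h0 : (0 : ℝ) ≤ min 1 ((P.GG * x / (k + 1)) ^ 4) := le_min zero_le_one (by positivity)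
          have h3 := min_le_left (1 : ℝ) ((P.GG * x / (k + 1)) ^ 4)
          generalize min 1 ((P.GG * x / (k + 1)) ^ 4) = y at h0 h3
          rw [Real.exp_neg, inv_le_iff_one_le_mul₀ (Real.exp_pos _)]
          nlinarith [Real.add_one_le_exp y]
    _ ≤ P.GG * (-((min 1 x - 1 / P.GG) / 2) + 1) := by
        rw [Finset.sum_sub_distrib, ← Finset.sum_div]
        simp only [Finset.sum_const, Finset.card_range, nsmul_eq_mul]
        linarith
    _ ≤ _ := mul_le_mul_of_nonneg_left (Real.add_one_le_exp _) hG.le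

theorem exp_neg_le (d : ℕ) : Real.exp (-d) ≤ 1 / 2 ^ d := by
  rw [Real.exp_neg, one_div, ← Real.exp_one_pow]
  gcongr
  linarith [Real.add_one_le_exp 1]

theorem colour {ι : Type} {J J' : ι} (h : J ≠ J') :
    (MU ι (Sg P)).real {η | (η J).2 = (η J').2} ≤ 1 / P.kc := by
  classical
  have hG : (0 : ℝ) < P.GG := by simp [Par.GG]; positivity
  have hk : (0 : ℝ) < P.kc := by simp [Par.kc]; positivity
  have h1 := fun k : Fin (P.k0 + 1) => markov {J, J'} (fun _ (s : Sg P) => if s.2 = k then (1 : ℝ) else 0)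
    (fun _ _ => by positivity) 1
  refine le_trans (measureReal_mono (fun η hη => ?_) (measure_ne_top _ _))
    ((ub univ _ (r := (1 / P.kc) ^ 2) fun k _ => (one_mul _).ge.trans ((h1 k).trans_eq ?_)).trans_eq ?_)
  · exact ⟨(η J).2, Finset.mem_univ _, by simp [Finset.prod_pair h, show (η J').2 = (η J).2 from hη.symm]⟩
  · simp only [Finset.prod_pair h, card_Sg, Fintype.sum_prod_type, Finset.sum_ite_eq', Finset.mem_univ,
      if_true, Finset.sum_const, Finset.card_univ, Fintype.card_fin, nsmul_eq_mul, mul_one]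
    rw [show ((P.G0 + 1 : ℕ) : ℝ) = P.GG from rfl]
    field_simp
  · rw [Finset.card_univ, Fintype.card_fin, show ((P.k0 + 1 : ℕ) : ℝ) = P.kc from rfl]
    field_simp

end K

open K in
theorem stK : StK := by
  intro G _ L P g hV c
  obtain ⟨T, hT, hnet⟩ := net_aux L P.q P.Lam c
  have hG : (0 : ℝ) < P.GG := by simp [Par.GG]; positivity
  have hU : ((UU L P g c).card : ℝ) ≤ P.GG := by exact_mod_cast card_UU_le L P hV c
  set x : (Fin P.q → G) × ℕ → Lab g → ℝ := fun p J => Real.exp (-Eh L P J p.1) / P.th p.2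
  have hx : ∀ p J, 0 < x p J := fun p J => div_pos (Real.exp_pos _) (by unfold Par.th; positivity)
  have hA : ∀ p : (Fin P.q → G) × ℕ, (MU (Lab g) (Sg P)).real {η | 8 * mh L P g c p.1 (P.th p.2) + P.d ≤
      ∑ J ∈ UU L P g c, min 1 ((lev P (η J) * x p J) ^ 2)} ≤ 1 / 2 ^ P.d := fun p => by
    refine (chern _ (fun J s => min 1 ((lev P s * x p J) ^ 2)) _ _ fun J => mgf_up P (hx p J)).trans ?_
    rw [← Finset.mul_sum]
    exact (congrArg Real.exp (sub_add_cancel_left _ _)).trans_le (exp_neg_le _)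
  have hB : ∀ p : (Fin P.q → G) × ℕ, (MU (Lab g) (Sg P)).real {η | -((mh L P g c p.1 (P.th p.2) - 1) / 2 - P.d)
      ≤ ∑ J ∈ UU L P g c, -min 1 ((lev P (η J) * x p J) ^ 4)} ≤ 1 / 2 ^ P.d := fun p => by
    refine (chern _ (fun J s => -min 1 ((lev P s * x p J) ^ 4)) _ _ fun J => mgf_lo P (x p J)).trans
      (le_trans (Real.exp_le_exp.2 ?_) (exp_neg_le _))
    rw [Finset.sum_neg_distrib, ← Finset.sum_div, Finset.sum_sub_distrib, Finset.sum_const, nsmul_eq_mul,
      mul_one_div]
    have : mh L P g c p.1 (P.th p.2) = ∑ J ∈ UU L P g c, min 1 (x p J) := rfl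
    linarith [(div_le_one hG).2 hU]
  rw [← ofReal_measureReal]
  refine ENNReal.ofReal_le_ofReal (le_trans ?_ hV.prob)
  have h1 := ub (T ×ˢ range (P.j1 + 1)) _ fun p _ => (measureReal_union_le _ _).trans (add_le_add (hA p) (hB p))
  have h2 := ub (UU L P g c).offDiag _ fun z hz => colour P (Finset.mem_offDiag.1 hz).2.2
  refine le_trans (measureReal_mono (fun η hη => ?_) (measure_ne_top _ _))
    ((measureReal_union_le _ _).trans (add_le_add (h1.trans ?_) (h2.trans ?_)))
  · by_contra h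
    simp only [Set.mem_union, not_or, not_exists, not_and, Set.mem_ofPred_eq, not_le] at h
    refine hη ⟨fun y hy j hj => ?_, fun J hJ J' hJ' e => ?_⟩
    · obtain ⟨h1, h2⟩ := h.1 (y, j) (Finset.mk_mem_product (hnet y hy) (Finset.mem_range_succ_iff.2 hj))
      rw [Finset.sum_neg_distrib, neg_lt_neg_iff] at h2
      simp only [mul_div_assoc]
      exact ⟨h1.le, h2.le⟩
    · by_contra hne
      exact h.2 (J, J') (Finset.mem_offDiag.2 ⟨hJ, hJ', hne⟩) e
  · rw [Finset.card_product, Finset.card_range]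
    have : (T.card : ℝ) ≤ (2 * L.b) ^ P.Lam * 2 ^ P.q := by exact_mod_cast hT
    push_cast
    calc _ = 2 * T.card * (P.j1 + 1) / (2 : ℝ) ^ P.d := by ring
      _ ≤ _ := by rw [mul_assoc 2 (_ ^ _)]; gcongr
  · rw [mul_one_div]
    have : ((UU L P g c).offDiag.card : ℝ) ≤ (UU L P g c).card ^ 2 := by
      rw [Finset.offDiag_card, sq]
      exact_mod_cast Nat.sub_le _ _
    gcongr
    exact this.trans (by gcongr)

end Crest.Agent.R192
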